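import Vale.Agent.P068.Defs
import Vale.Agent.P068.Main

namespace Vale.Agent.Results.P068.Disproof

open Vale.Agent.P068

theorem result :
    (¬ ∀ (α Θ : Type) (E : Set α) (M : Θ → Matroid α), (∀ i, (M i).E = E) →
      HasPackingCovering E M) ∧
    (¬ ∀ (α : Type) (E : Set α) (M N : Matroid α), M.E = E → N.E = E →
      SatisfiesIntersection E M N) ∧
    ∃ M N : Matroid ℕ, M.E = Set.univ ∧ N.E = Set.univ ∧
      ¬ HasPackingCovering Set.univ ![M, N] ∧ ¬ SatisfiesIntersection Set.univ M N := by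
  obtain ⟨M, N, h1, h2, h3, h4⟩ := main
  refine ⟨fun h => h3 (h _ _ _ _ ?_), fun h => h4 (h _ _ _ _ h1 h2), M, N, h1, h2, h3, h4⟩
  intro i
  fin_cases i
  · exact h1
  · exact h2

end Vale.Agent.Results.P068.Disproof
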